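import Vale.Agent.P097.H330.TC.Leaf

/-!
# P097 / case [c] / row A5.T, step (10) of 624 (note 15067) (helper330)

* `tan_const`: the form of the tangential limit world;
* `no_trans`: a limit world which is not tangential at one point is contradictory (920's `no_line`).
-/

set_option linter.all false

open Complex Metric Filter Topology Set
open scoped ComplexConjugate

namespace Vale.Agent.P097.H330.T10

open Vale.Agent.P097.TC
open Vale.Agent.P097.H190.EN (Low)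
open Vale.Agent.P097.H920 (GB WB isOpen_GB isOpen_WB convex_GB GB_sub_WB near_comp tlu_near
  isOpen_Sb Mi_hasDerivAt Mi_deriv_root R2_ne PD no_line Mi_add_int F_add_int Mi_contAt)

variable {Λ b : ℝ} {F q : ℂ → ℂ}

/-- tangential roots -/
theorem tan_pt (h : Cv Λ b F q) {a p x : ℂ} (hx : x ∈ Sb b) (h0 : Mi F q a p x = 0)
    (h1 : deriv (Mi F q a p) x = 0) :
    Complex.sin (a - F x) = 0 ∧ p = Complex.cos (a - F x) * q x := by
  have hs : Complex.sin (a - F x) = 0 := by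
    have h2 := Mi_deriv_root h hx h0
    rw [h1, mul_zero, eq_comm, mul_eq_zero] at h2
    exact h2.resolve_left (Vale.Agent.P097.H920.Cv.L3 h)
  refine ⟨hs, ?_⟩
  have h2 : deriv F x * (q x * Complex.cos (a - F x) - p) = 0 := by
    have := h0
    rw [Mi, hs, mul_zero, add_zero] at this
    exact this
  have h3 : deriv (deriv F) x * (q x * Complex.cos (a - F x) - p) = 0 := by
    have := h1
    rw [(Mi_hasDerivAt h a p hx).deriv, hs, mul_zero, add_zero] at this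
    exact this
  have h4 : q x * Complex.cos (a - F x) - p = 0 := by
    rcases mul_eq_zero.1 h2 with h5 | h5
    · exact (mul_eq_zero.1 h3).resolve_left (R2_ne h hx h5).2
    · exact h5
  linear_combination -h4

/-- the form of a tangential limit world -/
theorem tan_const (h : Cv Λ b F q) {al p θ : ℂ × ℂ → ℂ} (dal : DifferentiableOn ℂ al GB)
    (dθ : DifferentiableOn ℂ θ GB) (hθ : ∀ z ∈ GB, θ z ∈ Sb b)
    (hroot : ∀ z ∈ GB, Mi F q (al z) (p z) (θ z) = 0)
    (htan : ∀ z ∈ GB, deriv (Mi F q (al z) (p z)) (θ z) = 0) :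
    ∃ a : ℂ, Complex.sin a = 0 ∧ ∀ z ∈ GB, al z = F (θ z) + a ∧
      p z = Complex.cos a * q (θ z) := by
  set D : ℂ × ℂ → ℂ := fun z => al z - F (θ z) with hD
  have dD : DifferentiableOn ℂ D GB := dal.sub (h.dF.comp dθ fun z hz => hθ z hz)
  have hs : ∀ z ∈ GB, Complex.sin (D z) = 0 := fun z hz =>
    (tan_pt h (hθ z hz) (hroot z hz) (htan z hz)).1
  have hfd : EqOn (fderiv ℂ D) 0 GB := by
    intro z hz
    have h1 : DifferentiableAt ℂ D z := dD.differentiableAt (isOpen_GB.mem_nhds hz)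
    have h2 : HasFDerivAt (fun y => Complex.sin (D y)) (Complex.cos (D z) • fderiv ℂ D z) z :=
      h1.hasFDerivAt.csin
    have h3 : (fun y => Complex.sin (D y)) =ᶠ[𝓝 z] fun _ => (0 : ℂ) := by
      filter_upwards [isOpen_GB.mem_nhds hz] with y hy using hs y hy
    have h4 : fderiv ℂ (fun y => Complex.sin (D y)) z = 0 := by
      rw [h3.fderiv_eq]; simp
    rw [h2.fderiv] at h4
    have h6 : Complex.cos (D z) ≠ 0 := by
      intro h5
      have h7 := Complex.sin_sq_add_cos_sq (D z)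
      rw [h5, hs z hz] at h7
      norm_num at h7
    refine ContinuousLinearMap.ext fun w => ?_
    have h7 : (Complex.cos (D z) • fderiv ℂ D z) w = 0 := by rw [h4]; rfl
    have h8 : Complex.cos (D z) * fderiv ℂ D z w = 0 := h7
    exact (mul_eq_zero.1 h8).resolve_left h6
  have hmem : ((-I, I) : ℂ × ℂ) ∈ GB := by
    constructor
    · show (-I).im < 0
      simp
    · show 0 < I.im
      simp
  have hc : ∀ z ∈ GB, D z = D (-I, I) := fun z hz =>
    isOpen_GB.is_const_of_fderiv_eq_zero convex_GB.isPreconnected dD hfd hz hmem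
  refine ⟨D (-I, I), hs _ hmem, fun z hz => ⟨?_, ?_⟩⟩
  · rw [← hc z hz]
    simp [hD]
  · rw [← hc z hz]
    exact (tan_pt h (hθ z hz) (hroot z hz) (htan z hz)).2

theorem diff_Mi' (h : Cv Λ b F q) {al p θ : ℂ × ℂ → ℂ} {O : Set (ℂ × ℂ)}
    (dal : DifferentiableOn ℂ al O) (dp : DifferentiableOn ℂ p O) (dθ : DifferentiableOn ℂ θ O)
    (hθ : ∀ z ∈ O, θ z ∈ Sb b) :
    DifferentiableOn ℂ (fun z => deriv (Mi F q (al z) (p z)) (θ z)) O := by
  have dF0 : DifferentiableOn ℂ (fun z => F (θ z)) O := h.dF.comp dθ fun z hz => hθ z hz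
  have dq0 : DifferentiableOn ℂ (fun z => q (θ z)) O := h.dq.comp dθ fun z hz => hθ z hz
  have dF1 : DifferentiableOn ℂ (fun z => deriv F (θ z)) O :=
    (Vale.Agent.P097.H920.Cv.dF1 h).comp dθ fun z hz => hθ z hz
  have dF2 : DifferentiableOn ℂ (fun z => deriv (deriv F) (θ z)) O :=
    ((h.dF.deriv (isOpen_Sb b)).deriv (isOpen_Sb b)).comp dθ fun z hz => hθ z hz
  have dq2 : DifferentiableOn ℂ (fun z => deriv (deriv q) (θ z)) O :=
    ((h.dq.deriv (isOpen_Sb b)).deriv (isOpen_Sb b)).comp dθ fun z hz => hθ z hz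
  have h1 : DifferentiableOn ℂ (fun z => deriv (deriv F) (θ z) *
      (q (θ z) * Complex.cos (al z - F (θ z)) - p z) +
      (deriv F (θ z) ^ 2 * q (θ z) + deriv (deriv q) (θ z)) *
        Complex.sin (al z - F (θ z))) O :=
    (dF2.mul ((dq0.mul (dal.sub dF0).ccos).sub dp)).add
      ((((dF1.pow 2).mul dq0).add dq2).mul (dal.sub dF0).csin)
  refine h1.congr fun z hz => ?_
  exact (Mi_hasDerivAt h (al z) (p z) (hθ z hz)).deriv

section

variable {ι : Type*} {U : Ultrafilter ι} {al p th : ι → ℂ × ℂ → ℂ}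

/-- the limits of the lines are holomorphic -/
theorem lim_diff {Ω : Set (ℂ × ℂ)} (hΩ : IsOpen Ω)
    {f : ι → ℂ × ℂ → ℂ} {f' : ℂ × ℂ → ℂ}
    (hdf : ∀ z ∈ Ω, ∃ V ∈ 𝓝 z, ∀ᶠ n in (U : Filter ι), DifferentiableOn ℂ (f n) V)
    (hf : TendstoLocallyUniformlyOn f f' (U : Filter ι) Ω) : DifferentiableOn ℂ f' Ω := by
  have hb : Vale.Agent.P097.H190.Ult.LocBdd (U : Filter ι) f Ω := by
    intro z hz
    obtain ⟨V, hV, hVn⟩ := hdf z hz
    obtain ⟨r1, hr1, h1⟩ := tlu_near hΩ hf hz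
    obtain ⟨r2, hr2, h2⟩ := Metric.mem_nhds_iff.1 hV
    set r := min r1 r2 with hr
    have hr0 : 0 < r := lt_min hr1 hr2
    have hu := (h1 r (min_le_left _ _)).2
    have hVr : ball z r ⊆ V := (ball_subset_ball (min_le_right _ _)).trans h2
    have hc : ContinuousAt f' z := (hu.continuousOn
      (hVn.mono fun n hn => (hn.mono hVr).continuousOn).frequently).continuousAt
        (ball_mem_nhds z hr0)
    obtain ⟨s, hs, hs'⟩ := Metric.continuousAt_iff.1 hc 1 one_pos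
    refine ⟨min r s, lt_min hr0 hs, ‖f' z‖ + 2, ?_⟩
    filter_upwards [hVn, Metric.tendstoUniformlyOn_iff.1 hu 1 one_pos] with n hn1 hn2
    refine ⟨hn1.mono ((ball_subset_ball (min_le_left _ _)).trans hVr), fun y hy => ?_⟩
    have hy2 := hs' (mem_ball.1 (ball_subset_ball (min_le_right _ _) hy))
    have hy3 := hn2 y (ball_subset_ball (min_le_left _ _) hy)
    rw [dist_eq_norm] at hy2 hy3
    have e1 : f n y = f' z + (f' y - f' z) - (f' y - f n y) := by ring
    rw [e1]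
    refine (norm_sub_le _ _).trans ?_
    have := norm_add_le (f' z) (f' y - f' z)
    linarith
  obtain ⟨g, hg, hg2, -⟩ := Vale.Agent.P097.H190.Ult.montel_full U hΩ hb
  exact hg.congr fun y hy => tendsto_nhds_unique (hf.tendsto_at hy) (hg2.tendsto_at hy)

/-- **a limit world which is not tangential is contradictory** (920's `no_line`, any ultrafilter,
two variables, derivative form) -/
theorem no_trans (h : Cv Λ b F q) (hF : ∀ x ∈ Sb b, F (x + 1) = F x + 2 * Real.pi)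
    (hq : ∀ x ∈ Sb b, q (x + 1) = q x) (P : PD (U : Filter ι) b F q al p th)
    {N : ι → ℤ} {θ : ℂ × ℂ → ℂ} (dθ : DifferentiableOn ℂ θ GB)
    (hlim : TendstoLocallyUniformlyOn (fun n z => th n z - (N n : ℂ)) θ (U : Filter ι) GB)
    (hθ : ∀ z ∈ GB, θ z ∈ Sb b) {d : ℝ} (hd : 0 < d) {N' : ι → ℤ} {al' p' : ℂ × ℂ → ℂ}
    (hdf : ∀ z ∈ WB d, ∃ V ∈ 𝓝 z, ∀ᶠ n in (U : Filter ι), DifferentiableOn ℂ (al n) V ∧
      DifferentiableOn ℂ (p n) V)
    (hal : TendstoLocallyUniformlyOn (fun n z => al n z - 2 * Real.pi * N' n) al'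
      (U : Filter ι) (WB d))
    (hp : TendstoLocallyUniformlyOn p p' (U : Filter ι) (WB d))
    {z₁ : ℂ × ℂ} (hz₁ : z₁ ∈ GB)
    (hnt : deriv (Mi F q (al' z₁) (p' z₁)) (θ z₁) ≠ 0) : False := by
  have hGW : GB ⊆ WB d := GB_sub_WB hd.le
  have dal : DifferentiableOn ℂ al' (WB d) := lim_diff (isOpen_WB d)
    (fun z hz => by
      obtain ⟨V, hV, hn⟩ := hdf z hz
      exact ⟨V, hV, hn.mono fun n hn => hn.1.sub_const _⟩) hal
  have dp : DifferentiableOn ℂ p' (WB d) := lim_diff (isOpen_WB d)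
    (fun z hz => by
      obtain ⟨V, hV, hn⟩ := hdf z hz
      exact ⟨V, hV, hn.mono fun n hn => hn.2⟩) hp
  set S : ℂ × ℂ → ℂ := fun z => deriv (Mi F q (al' z) (p' z)) (θ z) with hS
  have hSa : AnalyticOnNhd ℂ S GB :=
    Vale.Agent.P097.Hol.analyticOnNhd_of_differentiableOn isOpen_GB
      (diff_Mi' h (dal.mono hGW) (dp.mono hGW) dθ hθ)
  have hslice : ∃ w₀ : ℂ, 0 < w₀.im ∧ |w₀.re| ≤ w₀.im / 2 ∧ ∃ κ ∈ Low, S (κ, w₀) ≠ 0 := by
    by_contra hcon
    push Not at hcon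
    have hmem : ((-I, I) : ℂ × ℂ) ∈ GB := by
      constructor
      · show (-I).im < 0
        simp
      · show 0 < I.im
        simp
    have hev : S =ᶠ[𝓝 ((-I, I) : ℂ × ℂ)] 0 := by
      have c1 : ∀ᶠ z : ℂ × ℂ in 𝓝 ((-I, I) : ℂ × ℂ), z.1.im < 0 := by
        have : ContinuousAt (fun z : ℂ × ℂ => z.1.im) ((-I, I) : ℂ × ℂ) := by fun_prop
        exact this.eventually_lt_const (by simp)
      have c2 : ∀ᶠ z : ℂ × ℂ in 𝓝 ((-I, I) : ℂ × ℂ), 1 / 2 < z.2.im := by
        have : ContinuousAt (fun z : ℂ × ℂ => z.2.im) ((-I, I) : ℂ × ℂ) := by fun_prop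
        exact this.eventually_const_lt (by simp; norm_num)
      have c3 : ∀ᶠ z : ℂ × ℂ in 𝓝 ((-I, I) : ℂ × ℂ), |z.2.re| < 1 / 4 := by
        have : ContinuousAt (fun z : ℂ × ℂ => |z.2.re|) ((-I, I) : ℂ × ℂ) := by fun_prop
        exact this.eventually_lt_const (by simp)
      filter_upwards [c1, c2, c3] with z k1 k2 k3
      exact hcon z.2 (by linarith) (by linarith) z.1 k1
    exact hnt (hSa.eqOn_zero_of_preconnected_of_eventuallyEq_zero convex_GB.isPreconnected hmem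
      hev hz₁)
  obtain ⟨w₀, hw, hw', κ, hκ, hSκ⟩ := hslice
  refine no_line h hF hq (fun R => P.toPos hF hq hlim hθ hw hw' R) (N := N') (al' := al')
    (p' := p') ?_ ⟨κ, hκ, hSκ⟩
  intro κ' hκ'
  have hm : ((κ', w₀) : ℂ × ℂ) ∈ WB d := ⟨hw, lt_of_le_of_lt hκ' (mul_pos hd hw)⟩
  obtain ⟨V, hV, hVd⟩ := hdf _ hm
  obtain ⟨r₁, hr₁, h1⟩ := tlu_near (isOpen_WB d) hal hm
  obtain ⟨r₂, hr₂, h2⟩ := tlu_near (isOpen_WB d) hp hm
  obtain ⟨r₃, hr₃, h3⟩ := Metric.mem_nhds_iff.1 hV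
  set r := min r₁ (min r₂ r₃) with hr
  have hr0 : 0 < r := by positivity
  have e1 : r ≤ r₁ := min_le_left _ _
  have e2 : r ≤ r₂ := (min_le_right _ _).trans (min_le_left _ _)
  have e3 : r ≤ r₃ := (min_le_right _ _).trans (min_le_right _ _)
  exact ⟨ball _ r, ball_mem_nhds _ hr0, hVd.mono fun n hn =>
    ⟨hn.1.mono ((ball_subset_ball e3).trans h3), hn.2.mono ((ball_subset_ball e3).trans h3)⟩,
    (h1 r e1).2, (h2 r e2).2⟩

/-- the root in the limit -/
theorem lim_root (h : Cv Λ b F q) (hF : ∀ x ∈ Sb b, F (x + 1) = F x + 2 * Real.pi)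
    (hq : ∀ x ∈ Sb b, q (x + 1) = q x) (P : PD (U : Filter ι) b F q al p th)
    {N : ι → ℤ} {θ : ℂ × ℂ → ℂ}
    (hlim : TendstoLocallyUniformlyOn (fun n z => th n z - (N n : ℂ)) θ (U : Filter ι) GB)
    (hθ : ∀ z ∈ GB, θ z ∈ Sb b) {d : ℝ} (hd : 0 < d) {N' : ι → ℤ} {al' p' : ℂ × ℂ → ℂ}
    (hal : TendstoLocallyUniformlyOn (fun n z => al n z - 2 * Real.pi * N' n) al'
      (U : Filter ι) (WB d))
    (hp : TendstoLocallyUniformlyOn p p' (U : Filter ι) (WB d)) :
    ∀ z ∈ GB, Mi F q (al' z) (p' z) (θ z) = 0 := by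
  intro z hz
  have hGW : GB ⊆ WB d := GB_sub_WB hd.le
  have t1 : Tendsto (fun n => al n z - 2 * Real.pi * N' n) (U : Filter ι)
      (𝓝 (al' z)) := hal.tendsto_at (hGW hz)
  have t2 : Tendsto (fun n => th n z - (N n : ℂ)) (U : Filter ι) (𝓝 (θ z)) :=
    hlim.tendsto_at hz
  have t3 : Tendsto (fun n => p n z) (U : Filter ι) (𝓝 (p' z)) := hp.tendsto_at (hGW hz)
  have t4 : Tendsto (fun n => (al n z - 2 * Real.pi * N' n, p n z,
      th n z - (N n : ℂ))) (U : Filter ι)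
      (𝓝 (al' z, p' z, θ z)) := t1.prodMk_nhds (t3.prodMk_nhds t2)
  have t5 := (Mi_contAt h (hθ _ hz)).tendsto.comp t4
  refine tendsto_nhds_unique t5 (tendsto_const_nhds.congr' ?_)
  obtain ⟨V, hV, hn⟩ := P.pos z hz
  filter_upwards [hn] with n hn
  obtain ⟨h2, h3⟩ := hn.2 z (mem_of_mem_nhds hV)
  have h4 := Mi_add_int hF hq (al n z) (p n z) h2 (-N n)
  rw [h3] at h4
  have e1 : th n z - (N n : ℂ) = th n z + ((-N n : ℤ) : ℂ) := by push_cast; ring
  have e2 : ∀ x : ℂ, Mi F q (al n z - 2 * Real.pi * N' n) (p n z) x =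
      Mi F q (al n z) (p n z) x := by
    intro x
    have e3 : al n z - 2 * Real.pi * N' n - F x =
        al n z - F x + ((-N' n : ℤ) : ℂ) * (2 * Real.pi) := by push_cast; ring
    rw [Mi, Mi, e3, Complex.cos_add_int_mul_two_pi, Complex.sin_add_int_mul_two_pi]
  simp only [Function.comp]
  rw [e2, e1, h4]

end

end Vale.Agent.P097.H330.T10
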