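import Vale.Agent.P097.H839.Tan.St9
import Vale.Agent.P097.H330.TC.Tang

/-!
# P097 / case [c] / ST10 (step (10) of 624, note 15067) and the abstract consumer of block (T)
(helper330)

`st10` : the lines `al n`, `p n` of 839's `NL9` with `e n → e₀ ≠ 0` are impossible;
`no_NL9` : with bounded `e n` they are impossible (839's `st9` and `st10`).
-/

set_option linter.all false

open Complex Metric Filter Topology Set

namespace Vale.Agent.P097.H330.T10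

open Vale.Agent.P097.TC
open Vale.Agent.P097.H190.EN (Low Dom)
open Vale.Agent.P097.H920 (ExtM GB WB isOpen_GB isOpen_WB convex_GB GB_sub_WB near_comp tlu_near
  Pos no_line dom_sub_GB)
open Vale.Agent.P097.H845 (leafK jac)
open Vale.Agent.P097.H100 (Wc isOpen_Wc wide_const_open1)
open Vale.Agent.P097.H839.Tan (NL9 exists_lim lu_pair lu_comp lu_mapsTo tc_d tc_touch ori
  TChart exists_chart root_lim Jac Jac_diff sig_mem ccos_int n1_sq deriv_Mi Mi_base Mx_base)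

variable {Λ b : ℝ} {F q : ℂ → ℂ} {ι : Type*} {U : Ultrafilter ι} {al p t : ι → ℂ × ℂ → ℂ}

/-- a limit world which is not tangential is contradictory, TOUCH in the form of `ExtM` -/
theorem no_transE (h : Cv Λ b F q) (hF : ∀ x ∈ Sb b, F (x + 1) = F x + 2 * Real.pi)
    (hq : ∀ x ∈ Sb b, q (x + 1) = q x) {θ : ℂ × ℂ → ℂ} (dθ : DifferentiableOn ℂ θ GB)
    (hlim : TendstoLocallyUniformlyOn t θ (U : Filter ι) GB)
    (hθ : ∀ z ∈ GB, θ z ∈ Sb b)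
    (hpos : ∀ z ∈ GB, ∃ V ∈ 𝓝 z, ∀ᶠ n in (U : Filter ι), DifferentiableOn ℂ (t n) V ∧
      ∀ z' ∈ V, t n z' ∈ Sb b ∧ Mi F q (al n z') (p n z') (t n z') = 0)
    (htouch : ∀ (a : ℝ) (w₀ : ℂ), 0 < w₀.im → |w₀.re| ≤ w₀.im / 2 → ∀ δ > 0, ∃ ε > 0,
      ∀ᶠ n in (U : Filter ι), ¬ ExtM b F q (al n) (p n) (t n) w₀ a δ ε)
    {d : ℝ} (hd : 0 < d) {al' p' : ℂ × ℂ → ℂ}
    (hdf : ∀ z ∈ WB d, ∃ V ∈ 𝓝 z, ∀ᶠ n in (U : Filter ι), DifferentiableOn ℂ (al n) V ∧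
      DifferentiableOn ℂ (p n) V)
    (hal : TendstoLocallyUniformlyOn al al' (U : Filter ι) (WB d))
    (hp : TendstoLocallyUniformlyOn p p' (U : Filter ι) (WB d))
    {z₁ : ℂ × ℂ} (hz₁ : z₁ ∈ GB)
    (hnt : deriv (Mi F q (al' z₁) (p' z₁)) (θ z₁) ≠ 0) : False := by
  have hGW : GB ⊆ WB d := GB_sub_WB hd.le
  have dal : DifferentiableOn ℂ al' (WB d) := lim_diff (isOpen_WB d)
    (fun z hz => by
      obtain ⟨V, hV, hn⟩ := hdf z hz
      exact ⟨V, hV, hn.mono fun n hn => hn.1⟩) hal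
  have dp : DifferentiableOn ℂ p' (WB d) := lim_diff (isOpen_WB d)
    (fun z hz => by
      obtain ⟨V, hV, hn⟩ := hdf z hz
      exact ⟨V, hV, hn.mono fun n hn => hn.2⟩) hp
  set S : ℂ × ℂ → ℂ := fun z => deriv (Mi F q (al' z) (p' z)) (θ z) with hS
  have hSa : AnalyticOnNhd ℂ S GB :=
    Vale.Agent.P097.Hol.analyticOnNhd_of_differentiableOn isOpen_GB
      (diff_Mi' h (dal.mono hGW) (dp.mono hGW) dθ hθ)
  have hslice : ∃ w₀ : ℂ, 0 < w₀.im ∧ |w₀.re| ≤ w₀.im / 2 ∧ ∃ κ ∈ Low, S (κ, w₀) ≠ 0 := by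
    by_contra hcon
    push Not at hcon
    have hmem : ((-I, I) : ℂ × ℂ) ∈ GB := by
      constructor
      · show (-I).im < 0
        simp
      · show 0 < I.im
        simp
    have hev : S =ᶠ[𝓝 ((-I, I) : ℂ × ℂ)] 0 := by
      have c1 : ∀ᶠ z : ℂ × ℂ in 𝓝 ((-I, I) : ℂ × ℂ), z.1.im < 0 := by
        have : ContinuousAt (fun z : ℂ × ℂ => z.1.im) ((-I, I) : ℂ × ℂ) := by fun_prop
        exact this.eventually_lt_const (by simp)
      have c2 : ∀ᶠ z : ℂ × ℂ in 𝓝 ((-I, I) : ℂ × ℂ), 1 / 2 < z.2.im := by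
        have : ContinuousAt (fun z : ℂ × ℂ => z.2.im) ((-I, I) : ℂ × ℂ) := by fun_prop
        exact this.eventually_const_lt (by simp; norm_num)
      have c3 : ∀ᶠ z : ℂ × ℂ in 𝓝 ((-I, I) : ℂ × ℂ), |z.2.re| < 1 / 4 := by
        have : ContinuousAt (fun z : ℂ × ℂ => |z.2.re|) ((-I, I) : ℂ × ℂ) := by fun_prop
        exact this.eventually_lt_const (by simp)
      filter_upwards [c1, c2, c3] with z k1 k2 k3
      exact hcon z.2 (by linarith) (by linarith) z.1 k1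
    exact hnt (hSa.eqOn_zero_of_preconnected_of_eventuallyEq_zero convex_GB.isPreconnected hmem
      hev hz₁)
  obtain ⟨w₀, hw, hw', κ, hκ, hSκ⟩ := hslice
  have hPos : ∀ R : ℝ, Pos (U : Filter ι) b R F q w₀ (w₀.im / 2) al p t θ := fun R =>
    { ρ0 := by positivity
      lim := hlim.mono dom_sub_GB
      reg := fun z hz => hpos z (dom_sub_GB hz)
      str := fun z hz => hθ z (dom_sub_GB hz)
      touch := fun c hc δ hδ => by
        obtain ⟨ε, hε, hev⟩ := htouch c w₀ hw hw' δ hδ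
        exact ⟨ε, hε, hev.frequently⟩ }
  refine no_line h hF hq hPos (N := fun _ => 0) (al' := al') (p' := p') ?_ ⟨κ, hκ, hSκ⟩
  intro κ' hκ'
  have hm : ((κ', w₀) : ℂ × ℂ) ∈ WB d := ⟨hw, lt_of_le_of_lt hκ' (mul_pos hd hw)⟩
  obtain ⟨V, hV, hVd⟩ := hdf _ hm
  obtain ⟨r₁, hr₁, h1⟩ := tlu_near (isOpen_WB d) hal hm
  obtain ⟨r₂, hr₂, h2⟩ := tlu_near (isOpen_WB d) hp hm
  obtain ⟨r₃, hr₃, h3⟩ := Metric.mem_nhds_iff.1 hV
  set r := min r₁ (min r₂ r₃) with hr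
  have hr0 : 0 < r := by positivity
  have e1 : r ≤ r₁ := min_le_left _ _
  have e2 : r ≤ r₂ := (min_le_right _ _).trans (min_le_left _ _)
  have e3 : r ≤ r₃ := (min_le_right _ _).trans (min_le_right _ _)
  refine ⟨ball _ r, ball_mem_nhds _ hr0, hVd.mono fun n hn =>
    ⟨hn.1.mono ((ball_subset_ball e3).trans h3), hn.2.mono ((ball_subset_ball e3).trans h3)⟩,
    ?_, (h2 r e2).2⟩
  refine (h1 r e1).2.congr (Eventually.of_forall fun n z _ => ?_)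
  simp

/-- affine normalisation -/
theorem lu_aff {l : Filter ι} {f : ι → ℂ × ℂ → ℂ} {A' : ℂ × ℂ → ℂ} {c e : ι → ℂ} {a0 e₀ : ℂ}
    {D : Set (ℂ × ℂ)} (he : Tendsto e l (𝓝 e₀)) (he0 : ∀ᶠ n in l, e n ≠ 0)
    (hc : Tendsto c l (𝓝 a0)) (hA' : ContinuousOn A' D)
    (hf : TendstoLocallyUniformlyOn (fun n z => (f n z - c n) / e n) A' l D) :
    TendstoLocallyUniformlyOn f (fun z => a0 + e₀ * A' z) l D := by
  have h1 : TendstoLocallyUniformlyOn (fun n (_ : ℂ × ℂ) => e n) (fun _ => e₀) l D :=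
    (he.tendstoUniformlyOn_const D).tendstoLocallyUniformlyOn
  have h2 : TendstoLocallyUniformlyOn (fun n (_ : ℂ × ℂ) => c n) (fun _ => a0) l D :=
    (hc.tendstoUniformlyOn_const D).tendstoLocallyUniformlyOn
  have h3 := h1.fun_mul₀ hf continuousOn_const hA'
  have h4 := h2.add h3
  intro u hu x hx
  obtain ⟨s, hs, hev⟩ := h4 u hu x hx
  refine ⟨s, hs, ?_⟩
  filter_upwards [hev, he0] with n hn hn0 y hy
  have h5 := hn y hy
  have e1 : ((fun n (_ : ℂ × ℂ) => c n) + fun n z => e n * ((f n z - c n) / e n)) n y = f n y := by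
    show c n + e n * ((f n y - c n) / e n) = f n y
    field_simp
    ring
  rw [e1] at h5
  exact h5

/-- a holomorphic function of `(κ, w)` on a ball about a real point which vanishes for real `κ`
vanishes on the ball -/
theorem zero_of_real {c : ℝ} {w₀ : ℂ} {ρ : ℝ} {D : ℂ × ℂ → ℂ}
    (hD : DifferentiableOn ℂ D (ball ((c : ℂ), w₀) ρ))
    (h0 : ∀ z ∈ ball ((c : ℂ), w₀) ρ, z.1.im = 0 → D z = 0) :
    ∀ z ∈ ball ((c : ℂ), w₀) ρ, D z = 0 := by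
  rintro ⟨κ, w⟩ hz
  have hz' := hz
  rw [← ball_prod_same] at hz'
  obtain ⟨hκ, hw⟩ := hz'
  have hρ : 0 < ρ := lt_of_le_of_lt dist_nonneg (mem_ball.1 hκ)
  set f : ℂ → ℂ := fun κ => D (κ, w) with hf
  have hfd : DifferentiableOn ℂ f (ball (c : ℂ) ρ) := by
    refine hD.comp (by fun_prop) fun κ' hκ' => ?_
    rw [← ball_prod_same]
    exact ⟨hκ', hw⟩
  have hfa : AnalyticOnNhd ℂ f (ball (c : ℂ) ρ) := hfd.analyticOnNhd isOpen_ball
  have hfr : ∃ᶠ κ' in 𝓝[≠] (c : ℂ), f κ' = 0 := by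
    have hseq : Tendsto (fun n : ℕ => (c : ℂ) + ((ρ / (n + 2) : ℝ) : ℂ)) atTop
        (𝓝[≠] (c : ℂ)) := by
      refine tendsto_nhdsWithin_iff.2 ⟨?_, Eventually.of_forall fun n => ?_⟩
      · have h1 : Tendsto (fun n : ℕ => ρ / ((n : ℝ) + 2)) atTop (𝓝 0) := by
          refine Tendsto.div_atTop tendsto_const_nhds ?_
          exact tendsto_atTop_add_const_right _ _ tendsto_natCast_atTop_atTop
        have h2 := (Complex.continuous_ofReal.tendsto 0).comp h1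
        have h3 := h2.const_add (c : ℂ)
        simpa using h3
      · have h1 : ρ / ((n : ℝ) + 2) ≠ 0 := by positivity
        simp only [mem_compl_iff, mem_singleton_iff]
        intro h2
        have h3 : ((ρ / ((n : ℝ) + 2) : ℝ) : ℂ) = 0 := by linear_combination h2
        exact h1 (by exact_mod_cast h3)
    refine hseq.frequently (Eventually.of_forall fun n => ?_).frequently
    refine h0 _ ?_ ?_
    · rw [← ball_prod_same]
      refine ⟨?_, hw⟩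
      rw [mem_ball, dist_eq_norm, add_sub_cancel_left, Complex.norm_real, Real.norm_eq_abs,
        abs_of_pos (by positivity)]
      rw [div_lt_iff₀ (by positivity)]
      nlinarith [(Nat.cast_nonneg n : (0 : ℝ) ≤ n)]
    · show ((c : ℂ) + ((ρ / ((n : ℝ) + 2) : ℝ) : ℂ)).im = 0
      rw [add_im, ofReal_im, ofReal_im, add_zero]
  exact hfa.eqOn_zero_of_preconnected_of_frequently_eq_zero (convex_ball _ _).isPreconnected
    (mem_ball_self hρ) hfr hκ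

variable {s' : ℝ} {th χ : ι → ℂ × ℂ → ℂ} {A' P' χ0 : ℂ × ℂ → ℂ} {cA cP e J : ι → ℂ}

/-- **ST10** : the lines do not converge to a non constant line; ultrafilter form (lines and
positions modulo integers) -/
theorem st10 (𝒰 : Ultrafilter ι) (hs : 0 < s') (hC : Cv Λ b F q) (hb : 0 < b)
    (hF : ∀ x ∈ Sb b, F (x + 1) = F x + 2 * Real.pi) (hq : ∀ x ∈ Sb b, q (x + 1) = q x)
    (N : NL9 (𝒰 : Filter ι) b F q s' al p th χ A' P' χ0 cA cP e J) {e₀ : ℂ}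
    (he : Tendsto e (𝒰 : Filter ι) (𝓝 e₀)) (he₀ : e₀ ≠ 0) {M : ι → ℤ} {C : ℝ}
    (hcA : ∀ᶠ n in (𝒰 : Filter ι), ‖cA n - 2 * Real.pi * M n‖ ≤ C)
    (hcP : ∀ᶠ n in (𝒰 : Filter ι), ‖cP n‖ ≤ C)
    (hth : ∀ K : Set (ℂ × ℂ), IsCompact K → (∀ z ∈ K, z.1.im < 0 ∧ 0 < z.2.im) →
      ∀ᶠ n in (𝒰 : Filter ι), ∀ z ∈ K, DifferentiableAt ℂ (th n) z ∧ th n z ∈ Sb b)
    {zb : ℂ × ℂ} (hzb : zb.1.im < 0 ∧ 0 < zb.2.im) {c0 : ℝ} (hc0 : 0 < c0)
    (hmid : ∀ᶠ n in (𝒰 : Filter ι), |(th n zb).im| ≤ b - c0) {θ : ℝ} (hθ : θ < 1)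
    (hgA : ∀ s'' < s', ∀ M : ℝ, ∃ A : ℝ, ∀ z ∈ Wc s', 1 ≤ z.2.im →
      z.1.im ≤ s'' * z.2.im → ‖z‖ ≤ M * z.2.im → ‖A' z‖ ≤ A * (1 + ‖z‖) ^ θ)
    (hgP : ∀ s'' < s', ∀ M : ℝ, ∃ A : ℝ, ∀ z ∈ Wc s', 1 ≤ z.2.im →
      z.1.im ≤ s'' * z.2.im → ‖z‖ ≤ M * z.2.im → ‖P' z‖ ≤ A * (1 + ‖z‖) ^ θ) : False := by
  have hGW : GB ⊆ Wc s' := GB_sub_WB hs.le
  have hWo : IsOpen (Wc s') := isOpen_Wc s'
  have hstrip : H190.Ult.LocStrip (𝒰 : Filter ι) th b GB := by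
    intro x hx
    obtain ⟨r, hr, hrG⟩ := Metric.nhds_basis_closedBall.mem_iff.mp (isOpen_GB.mem_nhds hx)
    refine ⟨r, hr, ?_⟩
    filter_upwards [hth (closedBall x r) (isCompact_closedBall _ _) fun z hz => hrG hz] with n hn
    exact ⟨fun y hy => (hn y (ball_subset_closedBall hy)).1.differentiableWithinAt,
      fun y hy => le_of_lt (hn y (ball_subset_closedBall hy)).2⟩
  obtain ⟨k, g, -, dg, lg, hgs, -⟩ := H190.Ult.ult_strip 𝒰 isOpen_GB convex_GB.isPreconnected hb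
    hc0 hstrip (z₀ := zb) hzb hmid
  have N' := N.shift hF hq (fun K hK hKG => (hth K hK hKG).mono fun n hn z hz => (hn z hz).2) M k
  set al₁ : ι → ℂ × ℂ → ℂ := fun n z => al n z - 2 * Real.pi * M n with hal₁
  set t : ι → ℂ × ℂ → ℂ := fun n z => th n z - k n with ht
  obtain ⟨a0, ha0⟩ := exists_lim 𝒰 hcA
  obtain ⟨p0, hp0⟩ := exists_lim 𝒰 hcP
  set al' : ℂ × ℂ → ℂ := fun z => a0 + e₀ * A' z with hal'
  set p' : ℂ × ℂ → ℂ := fun z => p0 + e₀ * P' z with hp'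
  have dal' : DifferentiableOn ℂ al' (Wc s') := (N.dA.const_mul _).const_add _
  have dp' : DifferentiableOn ℂ p' (Wc s') := (N.dP.const_mul _).const_add _
  have la : TendstoLocallyUniformlyOn al₁ al' (𝒰 : Filter ι) (Wc s') :=
    lu_aff he N'.e0 ha0 N'.dA.continuousOn N'.Al
  have lp : TendstoLocallyUniformlyOn p p' (𝒰 : Filter ι) (Wc s') :=
    lu_aff he N'.e0 hp0 N'.dP.continuousOn N'.Pl
  have hroot : ∀ z ∈ GB, Mi F q (al' z) (p' z) (g z) = 0 := by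
    intro z hz
    refine root_lim hC (la.tendsto_at (hGW hz)) (lp.tendsto_at (hGW hz))
      (lg.tendsto_at hz) (hgs z hz) ?_
    filter_upwards [N'.rt {z} isCompact_singleton (by
      intro y hy
      rw [mem_singleton_iff] at hy
      rw [hy]; exact hz)] with n hn
    exact (hn z rfl).2.1
  by_cases hnt : ∃ z ∈ GB, deriv (Mi F q (al' z) (p' z)) (g z) ≠ 0
  · obtain ⟨z₁, hz₁, hne⟩ := hnt
    refine no_transE (t := t) (al := al₁) (p := p) hC hF hq dg lg (fun z hz => hgs z hz) ?_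
      N'.touch hs (al' := al') (p' := p') ?_ la lp hz₁ hne
    · intro z hz
      obtain ⟨r, hr, hrG⟩ := Metric.nhds_basis_closedBall.mem_iff.mp (isOpen_GB.mem_nhds hz)
      refine ⟨closedBall z r, closedBall_mem_nhds _ hr, ?_⟩
      filter_upwards [hth (closedBall z r) (isCompact_closedBall _ _) fun z hz => hrG hz,
        N'.rt (closedBall z r) (isCompact_closedBall _ _) fun z hz => hrG hz] with n h1 h2
      refine ⟨fun y hy => ((h1 y hy).1.sub_const _).differentiableWithinAt, fun y hy => ⟨?_, ?_⟩⟩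
      · have := (h1 y hy).2
        show |(th n y - (k n : ℂ)).im| < b
        have e1 : (th n y - (k n : ℂ)).im = (th n y).im := by simp
        rw [e1]
        exact this
      · exact (h2 y hy).2.1
    · intro z hz
      obtain ⟨r, hr, hrW⟩ := Metric.nhds_basis_closedBall.mem_iff.mp (hWo.mem_nhds hz)
      refine ⟨closedBall z r, closedBall_mem_nhds _ hr, ?_⟩
      filter_upwards [N'.hd (closedBall z r) hrW (isCompact_closedBall _ _)] with n h1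
      exact ⟨fun y hy => (h1 y hy).1.differentiableWithinAt,
        fun y hy => (h1 y hy).2.1.differentiableWithinAt⟩
  push Not at hnt
  -- tangential
  obtain ⟨a, ha, hform⟩ := tan_const hC (dal'.mono hGW) dg (fun z hz => hgs z hz) hroot hnt
  obtain ⟨m, hm⟩ := Complex.sin_eq_zero_iff.1 ha
  have hcosa : Complex.cos a = (-1) ^ m := by rw [hm, ccos_int]
  have hI0 : 0 < (I : ℂ).im := by simp
  obtain ⟨c, x, hx, hlimx⟩ := tan_edge (D := univ) hC hF (al := al') (th := g) (w₀ := I) hI0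
    (fun c => dal'.continuousOn.continuousAt (hWo.mem_nhds (sig_mem hs c hI0))) dg
    (fun z hz => hgs z hz) (a := a) (fun z hz => (hform z hz).1)
  set e1 : ℂ × ℂ := ((c : ℂ), I) with he1
  have he1W : e1 ∈ Wc s' := sig_mem hs c hI0
  set v' : ℂ × ℂ → ℂ × ℂ := fun z => ori m al' p' z with hv'
  have dv' : DifferentiableOn ℂ v' (Wc s') := (dal'.sub_const _).prodMk (dp'.const_mul _)
  have hv'G : ∀ z ∈ GB, v' z = (F (g z), q (g z)) := by
    intro z hz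
    obtain ⟨h1, h2⟩ := hform z hz
    refine Prod.ext ?_ ?_
    · show al' z - m * Real.pi = F (g z)
      rw [h1, hm]; ring
    · show (-1) ^ m * p' z = q (g z)
      rw [h2, hcosa, ← mul_assoc, n1_sq, one_mul]
  have hnb : (𝓝[GB] e1).NeBot := by
    rw [← mem_closure_iff_nhdsWithin_neBot, Metric.mem_closure_iff]
    intro ε hε
    refine ⟨((c : ℂ) - ((ε / 2 : ℝ) : ℂ) * I, I), ⟨?_, ?_⟩, ?_⟩
    · show ((c : ℂ) - ((ε / 2 : ℝ) : ℂ) * I).im < 0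
      simp; linarith
    · show 0 < (I : ℂ).im
      simp
    · rw [Prod.dist_eq, dist_self, max_eq_left dist_nonneg, dist_eq_norm]
      have : (c : ℂ) - ((c : ℂ) - ((ε / 2 : ℝ) : ℂ) * I) = ((ε / 2 : ℝ) : ℂ) * I := by ring
      rw [this, norm_mul, Complex.norm_I, mul_one, Complex.norm_real, Real.norm_eq_abs,
        abs_of_pos (by positivity)]
      linarith
  have hFx : ContinuousAt F x := hC.dF.continuousOn.continuousAt ((H920.isOpen_Sb b).mem_nhds hx)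
  have hqx : ContinuousAt q x := hC.dq.continuousOn.continuousAt ((H920.isOpen_Sb b).mem_nhds hx)
  have hv'e : v' e1 = (F x, q x) := by
    have t1 : Tendsto v' (𝓝[GB] e1) (𝓝 (v' e1)) :=
      (dv'.continuousOn.continuousAt (hWo.mem_nhds he1W)).mono_left nhdsWithin_le_nhds
    have t2 : Tendsto (fun z => (F (g z), q (g z))) (𝓝[GB] e1) (𝓝 (F x, q x)) :=
      (hFx.tendsto.comp hlimx).prodMk_nhds (hqx.tendsto.comp hlimx)
    have t3 : Tendsto v' (𝓝[GB] e1) (𝓝 (F x, q x)) := by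
      refine t2.congr' ?_
      filter_upwards [self_mem_nhdsWithin] with z hz
      exact (hv'G z hz).symm
    exact tendsto_nhds_unique t1 t3
  obtain ⟨ε, ε', T, W, U', Inv, K', hch, -⟩ := exists_chart hC hx
  -- a good ball
  have hev : ∀ᶠ z in 𝓝 e1, (z ∈ Wc s' ∧ v' z ∈ ball (F x, q x) ε) ∧
      (z ∈ GB → g z ∈ ball x ε') ∧ |z.2.re| ≤ z.2.im / 2 := by
    refine ((hWo.eventually_mem he1W).and ?_).and (Eventually.and ?_ ?_)
    · refine (dv'.continuousOn.continuousAt (hWo.mem_nhds he1W)).eventually_mem ?_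
      rw [hv'e]
      exact ball_mem_nhds _ hch.ε0
    · have := hlimx.eventually_mem (ball_mem_nhds x hch.ε1)
      rwa [eventually_nhdsWithin_iff] at this
    · have h1 : ContinuousAt (fun z : ℂ × ℂ => z.2.im / 2 - |z.2.re|) e1 := by fun_prop
      have h2 : 0 < (fun z : ℂ × ℂ => z.2.im / 2 - |z.2.re|) e1 := by
        show 0 < (I : ℂ).im / 2 - |(I : ℂ).re|
        simp
      filter_upwards [h1.eventually_const_lt h2] with z hz
      linarith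
  obtain ⟨ρ₂, hρ₂, hρ₂b⟩ := Metric.mem_nhds_iff.1 hev
  set ρ := ρ₂ / 2 with hρ
  have hρ0 : 0 < ρ := by positivity
  set Ω₂ : Set (ℂ × ℂ) := ball e1 ρ₂ with hΩ₂
  have hΩ₂o : IsOpen Ω₂ := isOpen_ball
  have hΩ₂W : Ω₂ ⊆ Wc s' := fun z hz => (hρ₂b hz).1.1
  set K1 : Set (ℂ × ℂ) := closedBall e1 ρ with hK1
  have hK1c : IsCompact K1 := isCompact_closedBall _ _
  have hK1Ω : K1 ⊆ Ω₂ := closedBall_subset_ball (by linarith)
  set Ω : Set (ℂ × ℂ) := ball e1 ρ with hΩ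
  have hΩo : IsOpen Ω := isOpen_ball
  have hΩK : Ω ⊆ K1 := ball_subset_closedBall
  have hΩΩ₂ : Ω ⊆ Ω₂ := hΩK.trans hK1Ω
  have cg : Continuous (fun v : ℂ × ℂ => ((v.1 - m * Real.pi, (-1) ^ m * v.2) : ℂ × ℂ)) := by
    fun_prop
  have lv : TendstoLocallyUniformlyOn (fun n z => ori m (al₁ n) (p n) z) v' (𝒰 : Filter ι)
      (Wc s') :=
    lu_comp hWo (lu_pair la lp) (dal'.continuousOn.prodMk dp'.continuousOn) isOpen_univ
      (mapsTo_univ _ _)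
      (f := fun v : ℂ × ℂ => ((v.1 - m * Real.pi, (-1) ^ m * v.2) : ℂ × ℂ)) cg.continuousOn
  have hm₂ : MapsTo v' Ω₂ (ball (F x, q x) ε) := fun z hz => (hρ₂b hz).1.2
  have evV : ∀ K ⊆ Ω₂, IsCompact K → ∀ᶠ n in (𝒰 : Filter ι), ∀ z ∈ K,
      ori m (al₁ n) (p n) z ∈ ball (F x, q x) ε := fun K hK hKc =>
    lu_mapsTo hΩ₂o (lv.mono hΩ₂W) (dv'.continuousOn.mono hΩ₂W) isOpen_ball hm₂ hKc hK
  have evt : ∀ K ⊆ Ω₂, IsCompact K → (∀ z ∈ K, z.1.im < 0 ∧ 0 < z.2.im) →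
      ∀ᶠ n in (𝒰 : Filter ι), ∀ z ∈ K, t n z ∈ ball x ε' := fun K hK hKc hKG =>
    lu_mapsTo (Ω := Ω₂ ∩ GB) (hΩ₂o.inter isOpen_GB) (lg.mono inter_subset_right)
      (dg.continuousOn.mono inter_subset_right) isOpen_ball
      (fun z hz => (hρ₂b hz.1).2.1 hz.2) hKc fun z hz => ⟨hK hz, hKG z hz⟩
  have hd₂ : ∀ K ⊆ Ω₂, IsCompact K → ∀ᶠ n in (𝒰 : Filter ι), ∀ z ∈ K,
      DifferentiableAt ℂ (al₁ n) z ∧ DifferentiableAt ℂ (p n) z ∧
        jac (al₁ n) (p n) z = J n * χ n z := fun K hK hKc => N'.hd K (hK.trans hΩ₂W) hKc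
  have dd := tc_d (m := m) hch hd₂ evV
  have touch := tc_touch (m := m) (th := t) hch hΩ₂o (fun z hz => (hΩ₂W hz).1) hd₂ evV evt
    (fun K hK hKc hKG => N'.rt K hKc hKG)
    (fun a w₀ haw hw δ hδ => N'.touch a w₀ (hΩ₂W haw).1 hw δ hδ)
  -- the leaf lemma
  set X' : ℂ × ℂ → ℂ := fun z => T (v' z) with hX'
  have hm' : MapsTo v' Ω (ball (F x, q x) ε) := hm₂.mono hΩΩ₂ (Subset.refl _)
  have dvΩ : DifferentiableOn ℂ v' Ω := dv'.mono (hΩΩ₂.trans hΩ₂W)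
  have dX' : DifferentiableOn ℂ X' Ω := hch.dT.comp dvΩ hm'
  have hJd : DifferentiableOn ℂ (Jac T W) (ball (F x, q x) ε) :=
    Jac_diff isOpen_ball hch.dT hch.dW
  have hJv : ContinuousOn (fun y => Jac T W (v' y)) Ω := hJd.continuousOn.comp dvΩ.continuousOn hm'
  have hχc : ContinuousOn χ0 Ω := N.χc.mono (hΩΩ₂.trans hΩ₂W)
  have lvΩ := lv.mono (hΩΩ₂.trans hΩ₂W)
  have hleaf : ∀ z ∈ Ω, z.1.im = 0 → fderiv ℂ X' z (0, 1) = 0 := by
    intro z hz hz0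
    by_contra htr
    refine leafK (Ω := Ω) hΩo hz hz0 (X := fun n y => T (ori m (al₁ n) (p n) y))
      (m := fun n y => W (ori m (al₁ n) (p n) y))
      (χ := fun n y => (-1) ^ m * (Jac T W (ori m (al₁ n) (p n) y) * χ n y)) (X0 := X')
      (χ0 := fun y => (-1) ^ m * (Jac T W (v' y) * χ0 y)) (J := J) ?_ ?_ dX'
      (tlu_comp hΩo lvΩ dvΩ.continuousOn isOpen_ball hm' hch.dT.continuousOn) N.J0 ?_ ?_ ?_ ?_
      htr ?_ ?_
    · filter_upwards [dd K1 hK1Ω hK1c] with n hn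
      exact fun y hy => (hn y (hΩK hy)).1.differentiableWithinAt
    · filter_upwards [dd K1 hK1Ω hK1c] with n hn
      exact fun y hy => (hn y (hΩK hy)).2.1.differentiableWithinAt
    · have h1 := (tlu_comp hΩo lvΩ dvΩ.continuousOn isOpen_ball hm' hJd.continuousOn).fun_mul₀
        (N.χl.mono (hΩΩ₂.trans hΩ₂W)) hJv hχc
      have h2 : TendstoLocallyUniformlyOn (fun (_ : ι) (_ : ℂ × ℂ) => ((-1 : ℂ)) ^ m)
          (fun _ => ((-1 : ℂ)) ^ m) (𝒰 : Filter ι) Ω :=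
        (tendsto_const_nhds.tendstoUniformlyOn_const Ω).tendstoLocallyUniformlyOn
      exact h2.fun_mul₀ h1 continuousOn_const (hJv.mul hχc)
    · exact (continuousOn_const.mul (hJv.mul hχc)).continuousAt (hΩo.mem_nhds hz)
    · exact mul_ne_zero (zpow_ne_zero _ (by norm_num)) (mul_ne_zero (hch.jac _ (hm' hz))
        (N.χ0 z (hΩ₂W (hΩΩ₂ hz))))
    · filter_upwards [dd K1 hK1Ω hK1c] with n hn y hy
      rw [(hn y (hΩK hy)).2.2]
      ring
    · intro K hK hKc hKneg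
      have hKΩ₂ : K ⊆ Ω₂ := hK.trans hΩΩ₂
      have hKG : ∀ z ∈ K, z.1.im < 0 ∧ 0 < z.2.im := fun z hz => ⟨hKneg z hz, (hΩ₂W (hKΩ₂ hz)).1⟩
      filter_upwards [evV K hKΩ₂ hKc, evt K hKΩ₂ hKc hKG, N'.rt K hKc hKG] with n h1 h2 h3 y hy
      exact hch.free (h1 y hy) (h2 y hy) (h3 y hy).2.1 (h3 y hy).2.2
    · intro y hy hy0 δ hδ
      exact touch y (hΩΩ₂ hy) hy0 (hρ₂b (hΩΩ₂ hy)).2.2 δ hδ
  have hall : ∀ z ∈ Ω, fderiv ℂ X' z (0, 1) = 0 :=
    zero_of_real (D := fun z => fderiv ℂ X' z (0, 1))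
      (P268.differentiableOn_fderiv_apply hΩo dX' (0, 1)) hleaf
  -- the position
  set O : Set (ℂ × ℂ) := Ω ∩ GB with hO
  have hOo : IsOpen O := hΩo.inter isOpen_GB
  have hOne : O.Nonempty := by
    have h1 : ∀ᶠ z in 𝓝[GB] e1, z ∈ Ω :=
      mem_nhdsWithin_of_mem_nhds (hΩo.mem_nhds (mem_ball_self hρ0))
    obtain ⟨z, hz1, hz2⟩ := (h1.and self_mem_nhdsWithin).exists
    exact ⟨z, hz1, hz2⟩
  have hgX : ∀ z ∈ O, g z = X' z := by
    intro z hz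
    have hgz : g z ∈ ball x ε' := (hρ₂b (hΩΩ₂ hz.1)).2.1 hz.2
    have hgS : g z ∈ Sb b := hgs z hz.2
    have hvz : v' z ∈ ball (F x, q x) ε := hm' hz.1
    have hvz' := hv'G z hz.2
    have h0 : Mi F q (v' z).1 (v' z).2 (g z) = 0 := by
      rw [hvz']
      exact Mi_base F q (g z)
    have h1 : deriv (Mi F q (v' z).1 (v' z).2) (g z) = 0 := by
      rw [hvz', deriv_Mi hC hgS]
      exact Mx_base F q (g z)
    have h2 : W (v' z) = 0 := by
      by_contra hne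
      exact (hch.simple_iff hvz hgz h0).2 hne h1
    have h3 := (hch.root_iff hvz hgz).1 h0
    rw [h2] at h3
    exact sub_eq_zero.1 (pow_eq_zero_iff (two_ne_zero) |>.1 h3)
  have hdg : ∀ z ∈ O, fderiv ℂ g z (0, 1) = 0 := by
    intro z hz
    have h1 : g =ᶠ[𝓝 z] X' := by
      filter_upwards [hOo.mem_nhds hz] with y hy using hgX y hy
    rw [h1.fderiv_eq]
    exact hall z hz.1
  have hkey : ∀ {f : ℂ → ℂ} {B' u : ℂ × ℂ → ℂ} {c₁ c₂ c₃ : ℂ}, DifferentiableOn ℂ f (Sb b) →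
      DifferentiableOn ℂ B' (Wc s') → (∀ z ∈ GB, c₁ + e₀ * B' z = c₂ + c₃ * f (g z)) →
      ∀ z ∈ O, fderiv ℂ B' z (0, 1) = 0 := by
    intro f B' u c₁ c₂ c₃ hf hB' heq z hz
    have hgz : g z ∈ Sb b := hgs z hz.2
    have d1 : DifferentiableAt ℂ g z := dg.differentiableAt (isOpen_GB.mem_nhds hz.2)
    have d2 : HasDerivAt f (deriv f (g z)) (g z) :=
      (hf.differentiableAt ((H920.isOpen_Sb b).mem_nhds hgz)).hasDerivAt
    have d3 : HasFDerivAt (fun y => f (g y)) (deriv f (g z) • fderiv ℂ g z) z :=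
      d2.comp_hasFDerivAt z d1.hasFDerivAt
    have d4 : HasFDerivAt (fun y => c₂ + c₃ * f (g y)) (c₃ • (deriv f (g z) • fderiv ℂ g z)) z :=
      (d3.const_mul c₃).const_add c₂
    have d5 : HasFDerivAt (fun y => c₁ + e₀ * B' y) (e₀ • fderiv ℂ B' z) z :=
      ((hB'.differentiableAt (hWo.mem_nhds (hGW hz.2))).hasFDerivAt.const_mul e₀).const_add c₁
    have d6 : (fun y => c₁ + e₀ * B' y) =ᶠ[𝓝 z] fun y => c₂ + c₃ * f (g y) := by
      filter_upwards [isOpen_GB.mem_nhds hz.2] with y hy using heq y hy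
    have d7 := (d4.congr_of_eventuallyEq d6).unique d5
    have d8 := congrArg (fun A : ℂ × ℂ →L[ℂ] ℂ => A (0, 1)) d7
    have d9 : c₃ * (deriv f (g z) * fderiv ℂ g z (0, 1)) = e₀ * fderiv ℂ B' z (0, 1) := d8
    rw [hdg z hz, mul_zero, mul_zero, eq_comm, mul_eq_zero] at d9
    exact d9.resolve_left he₀
  have hA0 : ∀ z ∈ O, fderiv ℂ A' z (0, 1) = 0 :=
    hkey (u := A') (c₁ := a0) (c₂ := a) (c₃ := 1) hC.dF N.dA fun z hz => by
      have := (hform z hz).1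
      show al' z = _
      rw [this]; ring
  have hP0 : ∀ z ∈ O, fderiv ℂ P' z (0, 1) = 0 :=
    hkey (u := P') (c₁ := p0) (c₂ := 0) (c₃ := Complex.cos a) hC.dq N.dP fun z hz => by
      have := (hform z hz).2
      show p' z = _
      rw [this]; ring
  have hOW : O ⊆ Wc s' := fun z hz => hΩ₂W (hΩΩ₂ hz.1)
  obtain ⟨c₁, hc₁⟩ := wide_const_open1 (σ := 0) hs N.dA hOo hOW hOne
    (fun z hz => by rw [ofReal_zero]; exact hA0 z hz) hθ hgA
  obtain ⟨c₂, hc₂⟩ := wide_const_open1 (σ := 0) hs N.dP hOo hOW hOne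
    (fun z hz => by rw [ofReal_zero]; exact hP0 z hz) hθ hgP
  obtain ⟨z, hz, hne⟩ := N.nc
  have k1 : A' =ᶠ[𝓝 z] fun _ => c₁ := by
    filter_upwards [hWo.mem_nhds hz] with y hy using hc₁ y hy
  have k2 : P' =ᶠ[𝓝 z] fun _ => c₂ := by
    filter_upwards [hWo.mem_nhds hz] with y hy using hc₂ y hy
  rcases hne with h1 | h1
  · exact h1 (by rw [k1.fderiv_eq]; simp)
  · exact h1 (by rw [k2.fderiv_eq]; simp)

/-- **the abstract consumer of block (T)** : bounded normalisations -/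
theorem no_NL9 (𝒰 : Ultrafilter ι) (hs : 0 < s') (hC : Cv Λ b F q) (hb : 0 < b)
    (hF : ∀ x ∈ Sb b, F (x + 1) = F x + 2 * Real.pi) (hq : ∀ x ∈ Sb b, q (x + 1) = q x)
    (N : NL9 (𝒰 : Filter ι) b F q s' al p th χ A' P' χ0 cA cP e J) {M : ι → ℤ} {C : ℝ}
    (he : ∀ᶠ n in (𝒰 : Filter ι), ‖e n‖ ≤ C)
    (hcA : ∀ᶠ n in (𝒰 : Filter ι), ‖cA n - 2 * Real.pi * M n‖ ≤ C)
    (hcP : ∀ᶠ n in (𝒰 : Filter ι), ‖cP n‖ ≤ C)
    (hth : ∀ K : Set (ℂ × ℂ), IsCompact K → (∀ z ∈ K, z.1.im < 0 ∧ 0 < z.2.im) →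
      ∀ᶠ n in (𝒰 : Filter ι), ∀ z ∈ K, DifferentiableAt ℂ (th n) z ∧ th n z ∈ Sb b)
    {zb : ℂ × ℂ} (hzb : zb.1.im < 0 ∧ 0 < zb.2.im) {c0 : ℝ} (hc0 : 0 < c0)
    (hmid : ∀ᶠ n in (𝒰 : Filter ι), |(th n zb).im| ≤ b - c0) {θ : ℝ} (hθ : θ < 1)
    (hgA : ∀ s'' < s', ∀ M : ℝ, ∃ A : ℝ, ∀ z ∈ Wc s', 1 ≤ z.2.im →
      z.1.im ≤ s'' * z.2.im → ‖z‖ ≤ M * z.2.im → ‖A' z‖ ≤ A * (1 + ‖z‖) ^ θ)
    (hgP : ∀ s'' < s', ∀ M : ℝ, ∃ A : ℝ, ∀ z ∈ Wc s', 1 ≤ z.2.im →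
      z.1.im ≤ s'' * z.2.im → ‖z‖ ≤ M * z.2.im → ‖P' z‖ ≤ A * (1 + ‖z‖) ^ θ) : False := by
  obtain ⟨e₀, he₀⟩ := exists_lim 𝒰 he
  rcases eq_or_ne e₀ 0 with rfl | hne
  · exact Vale.Agent.P097.H839.Tan.st9 𝒰 hs hC hb hF hq N he₀ hcA hcP hth hzb hc0 hmid hθ hgA hgP
  · exact st10 𝒰 hs hC hb hF hq N he₀ hne hcA hcP hth hzb hc0 hmid hθ hgA hgP

end Vale.Agent.P097.H330.T10
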