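import Vale.Agent.P097.H190.EnG
import Vale.Agent.P097.H920.Pai
import Vale.Agent.P097.H100.Ent

/-!
# P097 / case [c] / row A5.T, step (10) of 624 (note 15067), part (alpha) (helper330)

The tangential limit world has an edge point with an interior limit of the position.
-/

set_option linter.all false

open Complex Metric Filter Topology Set
open scoped ComplexConjugate

namespace Vale.Agent.P097.H330.T10

open Vale.Agent.P097.TC
open Vale.Agent.P097.H190.EN (Low isOpen_low convex_low ee ee_cont ee_eq_iff ee_map mem_low_iff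
  dich half_plane_bound)
open Vale.Agent.P097.H190.EN.WorldL (fr_int ev_int)
open Vale.Agent.P097.H920 (isOpen_Sb not_F1 GB isOpen_GB convex_GB)

variable {Λ b : ℝ} {F q : ℂ → ℂ}

/-- the values of `exp (i F)` are isolated -/
theorem expF_iso (h : Cv Λ b F q) {x : ℂ} (hx : x ∈ Sb b) :
    ∀ᶠ y in 𝓝[≠] x, Complex.exp (I * F y) ≠ Complex.exp (I * F x) := by
  have hFa : AnalyticAt ℂ F x := (h.dF.analyticOnNhd (isOpen_Sb b)) x hx
  have ha : AnalyticAt ℂ (fun y => Complex.exp (I * F y) - Complex.exp (I * F x)) x :=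
    ((analyticAt_const.mul hFa).cexp).sub analyticAt_const
  rcases ha.eventually_eq_zero_or_eventually_ne_zero with h0 | h0
  · exfalso
    refine not_F1 h hx ?_
    have h1 := h0.eventually_nhds
    have h2 : ∀ᶠ y in 𝓝 x, y ∈ Sb b := (isOpen_Sb b).mem_nhds hx
    filter_upwards [h1, h2] with y hy hyS
    have h3 : HasDerivAt (fun y => Complex.exp (I * F y) - Complex.exp (I * F x))
        (Complex.exp (I * F y) * (I * deriv F y)) y :=
      (((Vale.Agent.P097.H920.Cv.F1 h hyS).const_mul I).cexp).sub_const _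
    have h4 : (fun y => Complex.exp (I * F y) - Complex.exp (I * F x)) =ᶠ[𝓝 y] fun _ => (0 : ℂ) :=
      hy
    have h5 := h4.deriv_eq
    rw [h3.deriv, deriv_const] at h5
    have h6 : I * deriv F y = 0 := (mul_eq_zero.1 h5).resolve_left (Complex.exp_ne_zero _)
    exact (mul_eq_zero.1 h6).resolve_left I_ne_zero
  · filter_upwards [h0] with y hy
    exact sub_ne_zero.1 hy

theorem F_sub_int (hper : ∀ x ∈ Sb b, F (x + 1) = F x + 2 * Real.pi) {x : ℂ} (hx : x ∈ Sb b)
    (k : ℤ) : F (x + k) = F x + 2 * Real.pi * k := by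
  induction k using Int.induction_on with
  | zero => simp
  | succ i ih =>
    have h1 := hper (x + ((i : ℤ) : ℂ)) (by simpa [Sb] using hx)
    rw [ih] at h1
    push_cast at h1 ⊢
    rw [← add_assoc, h1]; ring
  | pred i ih =>
    have h1 := hper (x + ((-(i : ℤ) - 1 : ℤ) : ℂ)) (by simpa [Sb] using hx)
    have e1 : x + ((-(i : ℤ) - 1 : ℤ) : ℂ) + 1 = x + ((-(i : ℤ) : ℤ) : ℂ) := by push_cast; ring
    rw [e1, ih] at h1
    push_cast at h1 ⊢
    linear_combination -h1

theorem expF_int (hper : ∀ x ∈ Sb b, F (x + 1) = F x + 2 * Real.pi) {x : ℂ} (hx : x ∈ Sb b)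
    (k : ℤ) : Complex.exp (I * F (x + k)) = Complex.exp (I * F x) := by
  rw [F_sub_int hper hx, mul_add, Complex.exp_add]
  have : Complex.exp (I * (2 * Real.pi * k)) = 1 := by
    rw [Complex.exp_eq_one_iff]
    exact ⟨k, by ring⟩
  rw [this, mul_one]

/-- **(alpha)**: an edge point with an interior limit -/
theorem tan_edge (h : Cv Λ b F q) (hper : ∀ x ∈ Sb b, F (x + 1) = F x + 2 * Real.pi)
    {D : Set (ℂ × ℂ)} {al th : ℂ × ℂ → ℂ} {w₀ : ℂ} (hw₀ : 0 < w₀.im)
    (hal : ∀ c : ℝ, ContinuousAt al ((c : ℂ), w₀))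
    (hth : DifferentiableOn ℂ th GB) (hb : ∀ z ∈ GB, th z ∈ Sb b) {a : ℂ}
    (he : ∀ z ∈ GB, al z = F (th z) + a) :
    ∃ (c : ℝ) (x : ℂ), x ∈ Sb b ∧ Tendsto th (𝓝[GB] ((c : ℂ), w₀)) (𝓝 x) := by
  set φ : ℂ → ℂ := fun κ => th (κ, w₀) with hφ
  have hmem : ∀ κ ∈ Low, (κ, w₀) ∈ GB := fun κ hκ => ⟨hκ, hw₀⟩
  have hφd : DifferentiableOn ℂ φ Low := by
    refine hth.comp ?_ hmem
    fun_prop
  have hφb : ∀ κ ∈ Low, |(φ κ).im| < b := fun κ hκ => hb _ (hmem κ hκ)
  have hexp : ∀ z ∈ GB, ∀ k : ℤ, Complex.exp (I * F (th z - k)) = Complex.exp (I * (al z - a)) := by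
    intro z hz k
    have h1 := expF_int hper (hb z hz) (-k)
    have e1 : th z + ((-k : ℤ) : ℂ) = th z - k := by push_cast; ring
    rw [e1] at h1
    rw [h1, he z hz]
    congr 1; ring
  -- cluster values are roots
  have hroot : ∀ (c : ℝ) (y : ℂ), y ∈ Sb b →
      MapClusterPt (ee y) (𝓝[Low] (c : ℂ)) (fun κ => ee (φ κ)) →
      Complex.exp (I * F y) = Complex.exp (I * (al (c, w₀) - a)) := by
    intro c y hy hcl
    by_contra hne
    set E : ℂ → ℂ := fun y => Complex.exp (I * F y) with hE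
    set v := Complex.exp (I * (al (c, w₀) - a)) with hv
    have hpos : 0 < dist (E y) v := dist_pos.2 hne
    have hEc : ContinuousAt E y := by
      have h1 : ContinuousAt F y := h.dF.continuousOn.continuousAt ((isOpen_Sb b).mem_nhds hy)
      exact (continuousAt_const.mul h1).cexp
    have hU : {y' | dist (E y') (E y) < dist (E y) v / 2} ∈ 𝓝 y :=
      hEc (ball_mem_nhds _ (by positivity))
    have h2 : ContinuousAt (fun κ : ℂ => Complex.exp (I * (al (κ, w₀) - a))) (c : ℂ) := by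
      have h3 : ContinuousAt (fun κ : ℂ => (κ, w₀)) (c : ℂ) := by fun_prop
      have h4 : ContinuousAt (fun κ : ℂ => al (κ, w₀)) (c : ℂ) :=
        ContinuousAt.comp (f := fun κ : ℂ => (κ, w₀)) (g := al) (hal c) h3
      exact (continuousAt_const.mul (h4.sub continuousAt_const)).cexp
    have h5 : ∀ᶠ κ in 𝓝[Low] (c : ℂ), dist (Complex.exp (I * (al (κ, w₀) - a))) v <
        dist (E y) v / 2 :=
      (h2.eventually_mem (ball_mem_nhds _ (by positivity))).filter_mono nhdsWithin_le_nhds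
    obtain ⟨κ, ⟨⟨k, hk⟩, hκ1⟩, hκ2⟩ := (((fr_int hcl hU).and_eventually h5).and_eventually
      self_mem_nhdsWithin).exists
    have h6 : dist (E (φ κ - k)) (E y) < dist (E y) v / 2 := hk
    have h7 : E (φ κ - k) = Complex.exp (I * (al (κ, w₀) - a)) := hexp _ (hmem κ hκ2) k
    rw [h7] at h6
    have h8 := dist_triangle_left (E y) v (Complex.exp (I * (al (κ, w₀) - a)))
    linarith
  -- isolated
  have hiso : ∀ (c : ℝ) (x : ℂ), |x.im| < b →
      MapClusterPt (ee x) (𝓝[Low] (c : ℂ)) (fun κ => ee (φ κ)) →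
      ∃ s > 0, ∀ y : ℂ, 0 < dist y (ee x) → dist y (ee x) ≤ s →
        ¬ MapClusterPt y (𝓝[Low] (c : ℂ)) (fun κ => ee (φ κ)) := by
    intro c x hx hcl
    have hxr := hroot c x hx hcl
    have h1 := expF_iso h (x := x) hx
    rw [eventually_nhdsWithin_iff] at h1
    have h2 : ee '' {y | (y ∈ ({x}ᶜ : Set ℂ) → Complex.exp (I * F y) ≠ Complex.exp (I * F x)) ∧
        y ∈ Sb b} ∈ 𝓝 (ee x) := by
      rw [← ee_map]
      exact image_mem_map (h1.and ((isOpen_Sb b).mem_nhds hx))
    obtain ⟨s, hs, hsub⟩ := Metric.mem_nhds_iff.mp h2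
    refine ⟨s / 2, by positivity, fun y hy0 hys hcly => ?_⟩
    have hmem' : y ∈ ball (ee x) s := by rw [mem_ball]; linarith
    obtain ⟨v, ⟨hv1, hv2⟩, rfl⟩ := hsub hmem'
    have hr := hroot c v hv2 hcly
    refine hv1 ?_ (hr.trans hxr.symm)
    intro hvx
    rw [mem_singleton_iff] at hvx
    rw [hvx, dist_self] at hy0
    exact lt_irrefl _ hy0
  have hdich := fun c : ℝ => dich (H := b) hφd.continuousOn hφb (hiso c)
  -- some real point has an interior limit
  have hex : ∃ (c : ℝ) (x : ℂ), |x.im| < b ∧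
      Tendsto (fun κ => ee (φ κ)) (𝓝[Low] (c : ℂ)) (𝓝 (ee x)) := by
    by_contra hcon
    push Not at hcon
    have hw : ∀ c : ℝ, Tendsto (fun κ => |(φ κ).im|) (𝓝[Low] (c : ℂ)) (𝓝 b) := by
      intro c
      rcases hdich c with ⟨x, hx, hx'⟩ | h1
      · exact absurd hx' (hcon c x hx)
      · exact h1
    have hI : (-((1 : ℝ) : ℂ) * I) ∈ Low := by
      show (-((1 : ℝ) : ℂ) * I).im < 0
      simp
    have h1 := hφb _ hI
    set A := b - |(φ (-((1 : ℝ) : ℂ) * I)).im| with hA
    have hA0 : 0 < A := by rw [hA]; linarith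
    have hb0 : 0 < b := h.b0
    set R := max 2 (8 * b / A) with hR
    have hR2 : 2 ≤ R := le_max_left _ _
    have hR3 : 8 * b / A ≤ R := le_max_right _ _
    have h2 := half_plane_bound (R := R) hb0 hφd (fun κ hκ => (hφb κ hκ).le)
      (fun c _ => hw c) (y := 1) one_pos (by linarith)
    rw [← hA, mul_one, le_div_iff₀ (by linarith)] at h2
    rw [div_le_iff₀ hA0] at hR3
    nlinarith
  obtain ⟨c, x, hx, hlim⟩ := hex
  have hxS : x ∈ Sb b := hx
  have hnb : (𝓝[Low] (c : ℂ)).NeBot := by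
    rw [← mem_closure_iff_nhdsWithin_neBot]
    rw [show Low = {κ : ℂ | κ.im < 0} from rfl, Complex.closure_setOfPred_im_lt]
    simp
  have hxr := hroot c x hx hlim.mapClusterPt
  set E : ℂ → ℂ := fun y => Complex.exp (I * F y) with hE
  set v := Complex.exp (I * (al (c, w₀) - a)) with hv
  -- a good radius
  have h1 := expF_iso h hxS
  rw [eventually_nhdsWithin_iff] at h1
  obtain ⟨r, hr, hrb⟩ := Metric.nhds_basis_closedBall.mem_iff.1
    (h1.and ((isOpen_Sb b).mem_nhds hxS))
  have hEcont : ContinuousOn E (closedBall x r) := by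
    intro y hy
    have h2 : ContinuousAt F y :=
      h.dF.continuousOn.continuousAt ((isOpen_Sb b).mem_nhds (hrb hy).2)
    exact ((continuousAt_const.mul h2).cexp).continuousWithinAt
  have hsph : ∃ κ₀ > 0, ∀ y ∈ sphere x r, κ₀ ≤ dist (E y) v := by
    have hne : (sphere x r).Nonempty := by
      refine ⟨x + r, ?_⟩
      rw [mem_sphere, dist_eq_norm]
      simp [abs_of_pos hr]
    have hc : ContinuousOn (fun y => dist (E y) v) (sphere x r) :=
      fun y hy => Filter.Tendsto.dist ((hEcont.mono sphere_subset_closedBall) y hy)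
        tendsto_const_nhds
    obtain ⟨y₀, hy₀, hmin⟩ := (isCompact_sphere x r).exists_isMinOn hne hc
    refine ⟨dist (E y₀) v, ?_, fun y hy => hmin hy⟩
    show 0 < dist (E y₀) v
    rw [dist_pos, ← hxr]
    refine (hrb (sphere_subset_closedBall hy₀)).1 ?_
    rw [mem_compl_iff, mem_singleton_iff]
    rintro rfl
    rw [mem_sphere, dist_self] at hy₀
    exact hr.ne hy₀
  obtain ⟨κ₀, hκ₀, hsph⟩ := hsph
  have hEv : ContinuousAt (fun z : ℂ × ℂ => Complex.exp (I * (al z - a))) ((c : ℂ), w₀) :=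
    (continuousAt_const.mul ((hal c).sub continuousAt_const)).cexp
  obtain ⟨δ, hδ, hδb⟩ := Metric.mem_nhds_iff.1 (hEv (ball_mem_nhds _ hκ₀))
  set S : Set (ℂ × ℂ) := ball ((c : ℂ), w₀) δ ∩ GB with hS
  have hSc : IsPreconnected S := ((convex_ball _ _).inter convex_GB).isPreconnected
  have hoff : ∀ z ∈ S, ∀ k : ℤ, th z - k ∉ sphere x r := by
    intro z hz k hk
    have h2 := hsph _ hk
    have h3 : E (th z - k) = Complex.exp (I * (al z - a)) := hexp z hz.2 k
    have h4 : dist (Complex.exp (I * (al z - a))) v < κ₀ := hδb hz.1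
    rw [h3] at h2
    linarith
  -- the integer
  obtain ⟨κ₁, ⟨hκ₁a, hκ₁b⟩, hκ₁c⟩ : ∃ κ : ℂ, ((∃ k : ℤ, φ κ - k ∈ ball x r) ∧ (κ, w₀) ∈
      ball ((c : ℂ), w₀) δ) ∧ κ ∈ Low := by
    have h2 : ∀ᶠ κ in 𝓝[Low] (c : ℂ), (κ, w₀) ∈ ball ((c : ℂ), w₀) δ := by
      have h3 : ContinuousAt (fun κ : ℂ => (κ, w₀)) (c : ℂ) := by fun_prop
      exact (h3.eventually_mem (ball_mem_nhds _ hδ)).filter_mono nhdsWithin_le_nhds
    exact (((ev_int hlim (ball_mem_nhds x hr)).and h2).and self_mem_nhdsWithin).exists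
  obtain ⟨k, hk⟩ := hκ₁a
  have hthc : ContinuousOn (fun z => dist (th z - k) x) S := by
    intro z hz
    have h2 := hth.continuousOn.continuousAt (isOpen_GB.mem_nhds hz.2)
    have h3 : ContinuousAt (fun z => dist (th z - k) x) z :=
      Filter.Tendsto.dist (h2.sub continuousAt_const) continuousAt_const
    exact h3.continuousWithinAt
  have hin : ∀ z ∈ S, dist (th z - k) x < r := by
    intro z hz
    by_contra hcon
    push Not at hcon
    have h2 : (κ₁, w₀) ∈ S := ⟨hκ₁b, hmem _ hκ₁c⟩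
    have h3 : dist (th (κ₁, w₀) - k) x < r := hk
    obtain ⟨z', hz', hz''⟩ := hSc.intermediate_value h2 hz hthc ⟨h3.le, hcon⟩
    exact hoff z' hz' k hz''
  refine ⟨c, x + k, by simpa [Sb] using hx, ?_⟩
  have hlimk : Tendsto (fun z => th z - k) (𝓝[GB] ((c : ℂ), w₀)) (𝓝 x) := by
    refine (isCompact_closedBall x r).tendsto_nhds_of_unique_mapClusterPt ?_ ?_
    · filter_upwards [mem_nhdsWithin_of_mem_nhds (ball_mem_nhds ((c : ℂ), w₀) hδ),
        self_mem_nhdsWithin] with z hz1 hz2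
      exact (hin z ⟨hz1, hz2⟩).le
    · intro y hy hcl
      by_contra hyx
      have hEy : E y ≠ E x := (hrb hy).1 (by rw [mem_compl_iff, mem_singleton_iff]; exact hyx)
      have hEc : ContinuousAt E y := by
        have h2 : ContinuousAt F y :=
          h.dF.continuousOn.continuousAt ((isOpen_Sb b).mem_nhds (hrb hy).2)
        exact (continuousAt_const.mul h2).cexp
      have hcl2 : MapClusterPt (E y) (𝓝[GB] ((c : ℂ), w₀)) (E ∘ fun z => th z - k) :=
        hcl.continuousAt_comp hEc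
      have hlim2 : Tendsto (E ∘ fun z => th z - k) (𝓝[GB] ((c : ℂ), w₀)) (𝓝 v) := by
        have h3 : Tendsto (fun z : ℂ × ℂ => Complex.exp (I * (al z - a))) (𝓝[GB] ((c : ℂ), w₀))
            (𝓝 v) := hEv.mono_left nhdsWithin_le_nhds
        refine h3.congr' ?_
        filter_upwards [self_mem_nhdsWithin] with z hz
        exact (hexp z hz k).symm
      have h4 : E y = v := by
        by_contra hne
        have h5 : Disjoint (𝓝 (E y)) (𝓝 v) := disjoint_nhds_nhds.2 hne
        exact (hcl2.clusterPt.mono hlim2).ne (by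
          rw [inf_comm] at *
          first
            | exact h5.eq_bot
            | exact (disjoint_iff.1 h5.symm))
      exact hEy (h4.trans hxr.symm)
  have h2 := hlimk.add_const (k : ℂ)
  refine h2.congr fun z => ?_
  ring

end Vale.Agent.P097.H330.T10
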