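import Vale.Agent.P097.H330.TC.Edge
import Vale.Agent.P097.H845.LeafB
import Vale.Agent.P097.H839.Tan.Area

/-!
# P097 / case [c] / row A5.T, step (10) of 624 (note 15067), part (beta) (helper330)

In the chart of the tangent lines the leaf lemma of 845 applies at every real point of a box where
the limit line is tangent.
-/

set_option linter.all false

open Complex Metric Filter Topology Set
open scoped ComplexConjugate

namespace Vale.Agent.P097.H330.T10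

open Vale.Agent.P097.TC
open Vale.Agent.P097.H920 (GB WB isOpen_GB isOpen_WB convex_GB GB_sub_WB near_comp tlu_near)
open Vale.Agent.P097.H845 (leafK jac)

variable {Λ b : ℝ} {F q : ℂ → ℂ}

theorem tlu_comp {ι : Type*} {l : Filter ι} {X Y Z : Type*} [PseudoMetricSpace X] [ProperSpace X]
    [PseudoMetricSpace Y] [ProperSpace Y] [PseudoMetricSpace Z] {f : ι → X → Y} {f' : X → Y}
    {Ω : Set X} (hΩ : IsOpen Ω) (hf : TendstoLocallyUniformlyOn f f' l Ω) (hc : ContinuousOn f' Ω)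
    {Ψ : Y → Z} {O : Set Y} (hO : IsOpen O) (hm : MapsTo f' Ω O) (hΨ : ContinuousOn Ψ O) :
    TendstoLocallyUniformlyOn (fun n z => Ψ (f n z)) (fun z => Ψ (f' z)) l Ω := by
  intro u hu x hx
  obtain ⟨r, hr, h1⟩ := tlu_near hΩ hf hx
  obtain ⟨N, hN, -, -, -, hU⟩ := near_comp (ball_mem_nhds x hr) (h1 r le_rfl).2
    (hc.continuousAt (hΩ.mem_nhds hx)) hO (hm hx) hΨ
  exact ⟨N, mem_nhdsWithin_of_mem_nhds hN, hU u hu⟩

open Vale.Agent.P097.H839.Tan in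
/-- **(beta)**, in the chart -/
theorem leaf_box {ι : Type*} {l : Filter ι} [NeBot l] {x0 : ℂ} {ε ε' : ℝ} {T W : ℂ × ℂ → ℂ}
    {U' : (ℂ × ℂ) × ℂ → ℂ} {Inv : ℂ × ℂ → ℂ × ℂ} {K' : ℝ}
    (C : TChart b F q x0 ε ε' T W U' Inv K') {Ω : Set (ℂ × ℂ)} (hΩ : IsOpen Ω)
    {v : ι → ℂ × ℂ → ℂ × ℂ} {v' : ℂ × ℂ → ℂ × ℂ} (hv : ∀ᶠ n in l, DifferentiableOn ℂ (v n) Ω)
    (hvm : ∀ᶠ n in l, MapsTo (v n) Ω (ball (F x0, q x0) ε))
    (hd' : DifferentiableOn ℂ v' Ω) (hm' : MapsTo v' Ω (ball (F x0, q x0) ε))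
    (hvl : TendstoLocallyUniformlyOn v v' l Ω) {t : ι → ℂ × ℂ → ℂ}
    (ht : ∀ K ⊆ Ω, IsCompact K → (∀ z ∈ K, z.1.im < 0) → ∀ᶠ n in l, ∀ z ∈ K,
      ContinuousAt (t n) z ∧ t n z ∈ ball x0 ε' ∧ Mi F q (v n z).1 (v n z).2 (t n z) = 0 ∧
        deriv (Mi F q (v n z).1 (v n z).2) (t n z) ≠ 0)
    (htouch : ∀ z ∈ Ω, z.1.im = 0 → ∀ δ > 0, ∃ ε₁ > 0, ∀ᶠ n in l, ¬ ∃ g : ℂ × ℂ → ℂ,
      DifferentiableOn ℂ g (ball z δ) ∧ ∀ y ∈ ball z δ, g y ∈ Sb b ∧
        (y.1.im ≤ -ε₁ → g y = t n y))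
    {J : ι → ℂ} (hJ : ∀ᶠ n in l, J n ≠ 0) {η : ι → ℂ × ℂ → ℂ} {η0 : ℂ × ℂ → ℂ}
    (hη : TendstoLocallyUniformlyOn η η0 l Ω) (hηc : ContinuousOn η0 Ω)
    (hη0 : ∀ z ∈ Ω, η0 z ≠ 0)
    (hjac : ∀ᶠ n in l, ∀ z ∈ Ω,
      jac (fun y => (v n y).1) (fun y => (v n y).2) z = J n * η n z) :
    ∀ z ∈ Ω, z.1.im = 0 → fderiv ℂ (fun y => T (v' y)) z (0, 1) = 0 := by
  intro z hz hz0
  by_contra htr
  have hvc : ContinuousOn v' Ω := hd'.continuousOn
  have hJd : DifferentiableOn ℂ (Jac T W) (ball (F x0, q x0) ε) := Jac_diff isOpen_ball C.dT C.dW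
  have hJv : ContinuousOn (fun y => Jac T W (v' y)) Ω := hJd.continuousOn.comp hvc hm'
  refine leafK (Ω := Ω) hΩ hz hz0 (X := fun n y => T (v n y)) (m := fun n y => W (v n y))
    (χ := fun n y => Jac T W (v n y) * η n y) (X0 := fun y => T (v' y))
    (χ0 := fun y => Jac T W (v' y) * η0 y) (J := J) ?_ ?_ (C.dT.comp hd' hm')
    (tlu_comp hΩ hvl hvc isOpen_ball hm' C.dT.continuousOn) hJ ?_ ?_ ?_ ?_ htr ?_ ?_
  · filter_upwards [hv, hvm] with n h1 h2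
    exact C.dT.comp h1 h2
  · filter_upwards [hv, hvm] with n h1 h2
    exact C.dW.comp h1 h2
  · exact (tlu_comp hΩ hvl hvc isOpen_ball hm' hJd.continuousOn).fun_mul₀ hη hJv hηc
  · exact (hJv.mul hηc).continuousAt (hΩ.mem_nhds hz)
  · exact mul_ne_zero (C.jac _ (hm' hz)) (hη0 z hz)
  · filter_upwards [hv, hvm, hjac] with n h1 h2 h3 y hy
    have h4 : DifferentiableAt ℂ (v n) y := h1.differentiableAt (hΩ.mem_nhds hy)
    have h5 := C.area h4 (h2 hy)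
    have h6 : jac (fun y => T (v n y)) (fun y => W (v n y)) y =
      Jac T W (v n y) * jac (fun y => (v n y).1) (fun y => (v n y).2) y := h5
    rw [h6, h3 y hy]
    ring
  · intro K hK hKc hKneg
    filter_upwards [ht K hK hKc hKneg, hvm] with n h1 h2 y hy
    obtain ⟨-, h3, h4, h5⟩ := h1 y hy
    exact (C.simple_iff (h2 (hK hy)) h3 h4).1 h5
  · intro y hy hy0 δ hδ
    obtain ⟨δ₁, hδ₁, hδ₁Ω⟩ := Metric.nhds_basis_closedBall.mem_iff.1 (hΩ.mem_nhds hy)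
    set δ' := min δ δ₁ with hδ'
    have hδ'0 : 0 < δ' := lt_min hδ hδ₁
    have hbΩ : closedBall y δ' ⊆ Ω := (closedBall_subset_closedBall (min_le_right _ _)).trans hδ₁Ω
    obtain ⟨ε₁, hε₁, hno⟩ := htouch y hy hy0 δ' hδ'0
    set Kc : Set (ℂ × ℂ) := closedBall y δ' ∩ {z | z.1.im ≤ -ε₁} with hKc
    have hKcc : IsCompact Kc := (isCompact_closedBall _ _).inter_right
      (isClosed_le (Complex.continuous_im.comp continuous_fst) continuous_const)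
    have hKneg : ∀ z ∈ Kc, z.1.im < 0 := by
      intro z hz
      have : z.1.im ≤ -ε₁ := hz.2
      linarith
    set D₀ : Set (ℂ × ℂ) := ball y δ' ∩ {z | z.1.im ≤ -ε₁} with hD₀
    have hD₀c : Convex ℝ D₀ := by
      refine (convex_ball _ _).inter ?_
      intro a ha c hc s t hs ht hst
      have ha' : a.1.im ≤ -ε₁ := ha
      have hc' : c.1.im ≤ -ε₁ := hc
      show (s • a + t • c).1.im ≤ -ε₁
      have h4 : (s • a + t • c).1.im = s * a.1.im + t * c.1.im := by simp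
      rw [h4]
      have h5 : s * a.1.im + t * c.1.im ≤ s * (-ε₁) + t * (-ε₁) := by gcongr
      have h6 : s * (-ε₁) + t * (-ε₁) = -ε₁ := by rw [← add_mul, hst, one_mul]
      linarith
    have hD₀K : D₀ ⊆ Kc := inter_subset_inter_left _ ball_subset_closedBall
    filter_upwards [hno, ht Kc (inter_subset_left.trans hbΩ) hKcc hKneg, hv, hvm] with n h1 h2 h3 h4
    by_contra hcon
    push Not at hcon
    apply h1
    have hbb : ball y δ' ⊆ Ω := ball_subset_closedBall.trans hbΩ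
    obtain ⟨θ', hθd, hθe, hθ3⟩ := C.extend (D := ball y δ') (D₀ := D₀) isOpen_ball
      (convex_ball _ _) (h3.mono hbb) (h4.mono hbb (Subset.refl _))
      (fun z hz => hcon z (ball_subset_ball (min_le_left _ _) hz)) inter_subset_left
      hD₀c.isPreconnected (θ := t n)
      (fun z hz => (h2 z (hD₀K hz)).1.continuousWithinAt)
      (fun z hz => (h2 z (hD₀K hz)).2.1) (fun z hz => (h2 z (hD₀K hz)).2.2.1)
    refine ⟨θ', hθd, fun z hz => ⟨C.sb (hθ3 z hz).1, fun hzi => hθe z ⟨hz, hzi⟩⟩⟩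

end Vale.Agent.P097.H330.T10
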