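import Vale.Agent.P097.H624.T.Defs
import Vale.Agent.P097.H839.Tan.W5N
import Vale.Agent.P097.H330.TC.St10

/-!
# P097 / case [c] / block (T) : the end of the proof, `tanEnd : H624.T.TanEnd`
(helper330)

Montel along the ultrafilter for the normalised lines of `NB`, the data `NL9` over the world
(`nl9_of`, helper839), and `no_NL9`.
-/

set_option linter.all false

open Complex Metric Filter Topology Set

namespace Vale.Agent.P097.H330.T10

open Vale.Agent.P097.TC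
open Vale.Agent.P097.A5 (W5 Sq Tou Dm Wd Nr)
open Vale.Agent.P097.H100 (Wc isOpen_Wc)
open Vale.Agent.P097.H190.Ult (LocBdd montel_full)
open Vale.Agent.P097.H839.Tan (NL9 nl9_of hth_of)

/-- where the derivative of the limit vanishes, the derivatives tend to zero -/
theorem fd_small {ι : Type*} {l : Filter ι} {f : ι → ℂ × ℂ → ℂ} {g : ℂ × ℂ → ℂ}
    {U : Set (ℂ × ℂ)} (hU : IsOpen U) (hf : LocBdd l f U) (hg : DifferentiableOn ℂ g U)
    (ht : TendstoLocallyUniformlyOn f g l U) {z : ℂ × ℂ} (hz : z ∈ U)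
    (h0 : fderiv ℂ g z = 0) {η : ℝ} (hη : 0 < η) :
    ∀ᶠ n in l, DifferentiableAt ℂ (f n) z ∧ ‖fderiv ℂ (f n) z‖ ≤ η := by
  obtain ⟨r₁, hr₁, C, hC⟩ := hf z hz
  obtain ⟨r₂, hr₂, h2⟩ := Metric.isOpen_iff.1 hU z hz
  obtain ⟨r, hr, hr1, hr2⟩ : ∃ r > 0, r < r₁ ∧ r < r₂ :=
    ⟨min r₁ r₂ / 2, by positivity, by
      have := min_le_left r₁ r₂
      have := lt_min hr₁ hr₂
      linarith, by
      have := min_le_right r₁ r₂
      have := lt_min hr₁ hr₂
      linarith⟩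
  have hcb : closedBall z r ⊆ U := (closedBall_subset_ball hr2).trans h2
  have hu := (tendstoLocallyUniformlyOn_iff_forall_isCompact hU).1 ht _ hcb
    (isCompact_closedBall z r)
  have hu' := Metric.tendstoUniformlyOn_iff.1 hu (η * r) (by positivity)
  filter_upwards [hC, hu'] with n h3 h4
  have d1 : DifferentiableOn ℂ (f n) (ball z r) := h3.1.mono (ball_subset_ball hr1.le)
  have d2 : DifferentiableOn ℂ g (ball z r) := hg.mono (ball_subset_closedBall.trans hcb)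
  have e1 : DifferentiableAt ℂ (f n) z := d1.differentiableAt (ball_mem_nhds z hr)
  have e2 : DifferentiableAt ℂ g z := d2.differentiableAt (ball_mem_nhds z hr)
  refine ⟨e1, ?_⟩
  have h5 := P268.norm_fderiv_le_of_ball (f := fun x => f n x - g x) (C := η * r) hr (d1.sub d2)
    fun x hx => by
      have := h4 x (ball_subset_closedBall hx)
      rw [dist_comm, dist_eq_norm] at this
      exact this.le
  have h6 : fderiv ℂ (fun x => f n x - g x) z = fderiv ℂ (f n) z := by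
    have := (e1.hasFDerivAt.sub e2.hasFDerivAt).fderiv
    rw [h0, sub_zero] at this
    exact this
  rw [h6] at h5
  rwa [mul_div_cancel_right₀ _ hr.ne'] at h5

/-- unscaled derivative -/
theorem fd_scale {f : ℂ × ℂ → ℂ} {c e : ℂ} (he : e ≠ 0) {z : ℂ × ℂ}
    (h : DifferentiableAt ℂ (fun x => (f x - c) / e) z) :
    fderiv ℂ f z = e • fderiv ℂ (fun x => (f x - c) / e) z := by
  have h1 := (h.hasFDerivAt.const_mul e).add_const c
  have h2 : (fun x => e * ((f x - c) / e) + c) = f := by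
    funext x
    field_simp
    ring
  rw [h2] at h1
  exact h1.fderiv

/-- **`TanEnd`** of helper624, literally -/
theorem tanEnd : Vale.Agent.P097.H624.T.TanEnd := by
  intro Λ H F q b m Ψ Mj Mk B A P c k K y₀ u₀ σ s al p th J W y u r S T hr 𝒰 hU N ε z₁ hN z₀ η
    hz₀ hη hmid
  have hd : 0 < s - σ := sub_pos.2 W.σs
  obtain ⟨A', dA, tA, cA⟩ := montel_full 𝒰 (isOpen_Wc (s - σ)) hN.nal
  obtain ⟨P', dP, tP, cP⟩ := montel_full 𝒰 (isOpen_Wc (s - σ)) hN.np
  have he0 : ∀ᶠ n in (𝒰 : Filter ℕ), ((ε n : ℝ) : ℂ) ≠ 0 := by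
    filter_upwards [hN.ε0] with n hn
    exact_mod_cast hn.1.ne'
  have nc : ∃ z ∈ Wc (s - σ), fderiv ℂ A' z ≠ 0 ∨ fderiv ℂ P' z ≠ 0 := by
    obtain ⟨c', hc', z₂, hz₂, h⟩ := hN.nc
    refine ⟨z₂, hz₂, ?_⟩
    by_contra hcon
    push Not at hcon
    obtain ⟨h1, h2⟩ := hcon
    have a1 := fd_small (isOpen_Wc (s - σ)) hN.nal dA tA hz₂ h1 (η := c' / 3) (by positivity)
    have a2 := fd_small (isOpen_Wc (s - σ)) hN.np dP tP hz₂ h2 (η := c' / 3) (by positivity)
    have : ∀ᶠ n in (𝒰 : Filter ℕ), False := by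
      filter_upwards [a1, a2, hN.ε0, h] with n k1 k2 k3 k4
      have e0 : ((ε n : ℝ) : ℂ) ≠ 0 := by exact_mod_cast k3.1.ne'
      have f1 := fd_scale e0 k1.1
      have f2 := fd_scale e0 k2.1
      rw [f1, f2, norm_smul, norm_smul, Complex.norm_real, Real.norm_of_nonneg k3.1.le] at k4
      have g1 := mul_le_mul_of_nonneg_left k1.2 k3.1.le
      have g2 := mul_le_mul_of_nonneg_left k2.2 k3.1.le
      have g3 := mul_pos hc' k3.1
      nlinarith
    exact this.exists.elim fun _ h => h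
  have hNL := nl9_of W S hr T hU (cA := fun n => al (Vale.Agent.P097.H624.T.phi P c u₀ σ y u r n z₁))
    (cP := fun n => p (Vale.Agent.P097.H624.T.phi P c u₀ σ y u r n z₁))
    (e := fun n => ((ε n : ℝ) : ℂ)) he0 dA dP tA tP nc
  obtain ⟨C₁, hC₁⟩ := hN.cal
  obtain ⟨C₂, hC₂⟩ := hN.cp
  obtain ⟨θ, hθ, hgr⟩ := hN.gr
  have key : ∀ (f : ℕ → ℂ × ℂ → ℂ) (g : ℂ × ℂ → ℂ),
      TendstoLocallyUniformlyOn (fun n z => (f n z - f n z₁) / ((ε n : ℝ) : ℂ)) g (𝒰 : Filter ℕ)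
        (Wc (s - σ)) → ∀ z ∈ Wc (s - σ), ∀ X : ℝ,
      (∀ᶠ n in (𝒰 : Filter ℕ), ‖f n z - f n z₁‖ ≤ X * ε n) → ‖g z‖ ≤ X := by
    intro f g hfg z hz X hX
    refine le_of_tendsto (hfg.tendsto_at hz).norm ?_
    filter_upwards [hX, hN.ε0] with n h1 h2
    rw [norm_div, Complex.norm_real, Real.norm_of_nonneg h2.1.le, div_le_iff₀ h2.1]
    exact h1
  refine no_NL9 𝒰 hd W.crv.cv W.crv.cv.b0 W.crv.Fp W.crv.qp hNL (M := N)
    (C := max (max C₁ C₂) 1) ?_ ?_ ?_ (hth_of W S hr hU) (zb := z₀) hz₀ hη hmid hθ ?_ ?_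
  · filter_upwards [hN.ε0] with n hn
    rw [Complex.norm_real, Real.norm_of_nonneg hn.1.le]
    exact hn.2.trans (le_max_right _ _)
  · filter_upwards [hC₁] with n hn
    exact hn.trans ((le_max_left _ _).trans (le_max_left _ _))
  · filter_upwards [hC₂] with n hn
    exact hn.trans ((le_max_right _ _).trans (le_max_left _ _))
  · intro s'' hs'' M
    obtain ⟨A₁, hA₁⟩ := hgr s'' hs'' M
    refine ⟨A₁, fun z hz h1 h2 h3 => key _ _ tA z hz _ ?_⟩
    filter_upwards [hA₁ z hz h1 h2 h3] with n hn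
    linarith [hn.1, mul_right_comm A₁ (ε n) ((1 + ‖z‖) ^ θ)]
  · intro s'' hs'' M
    obtain ⟨A₁, hA₁⟩ := hgr s'' hs'' M
    refine ⟨A₁, fun z hz h1 h2 h3 => key _ _ tP z hz _ ?_⟩
    filter_upwards [hA₁ z hz h1 h2 h3] with n hn
    linarith [hn.2, mul_right_comm A₁ (ε n) ((1 + ‖z‖) ^ θ)]

end Vale.Agent.P097.H330.T10
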